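import Mathlib

/-! # Stable range of algebras which are finite over a noetherian central ring -/

namespace Vale.Agent.P246.H110

open Submodule

variable {A R : Type} [CommRing A] [Ring R] [Algebra A R]

/-- `f R ⊆ J + span s` for some `f ∉ p` and some `s` with at most `k` elements -/
def GG (J : Submodule A R) (p : Ideal A) (k : ℕ) : Prop :=
  ∃ f : A, f ∉ p ∧ ∃ s : Finset R, s.card ≤ k ∧ ∀ x : R, f • x ∈ J ⊔ span A (s : Set R)

/-- `a` vanishes in the fibre of `R / J` at `p` -/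
def ZZ (J : Submodule A R) (a : R) (p : Ideal A) : Prop :=
  ∃ f : A, f ∉ p ∧ f • a ∈ J ⊔ p • (⊤ : Submodule A R)

theorem GG.monoJ {J J' : Submodule A R} {p : Ideal A} {k : ℕ} (h : GG J p k) (hJ : J ≤ J') :
    GG J' p k := by
  obtain ⟨f, hf, s, hs, h⟩ := h
  exact ⟨f, hf, s, hs, fun x => sup_le_sup_right hJ _ (h x)⟩

theorem GG.antip {J : Submodule A R} {p q : Ideal A} {k : ℕ} (h : GG J p k) (hJ : q ≤ p) :
    GG J q k := by
  obtain ⟨f, hf, s, hs, h⟩ := h
  exact ⟨f, fun h' => hf (hJ h'), s, hs, h⟩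

theorem GG.monok {J : Submodule A R} {p : Ideal A} {k l : ℕ} (h : GG J p k) (hJ : k ≤ l) :
    GG J p l := by
  obtain ⟨f, hf, s, hs, h⟩ := h
  exact ⟨f, hf, s, hs.trans hJ, h⟩

theorem ZZ.monoJ {J J' : Submodule A R} {p : Ideal A} {a : R} (h : ZZ J a p) (hJ : J ≤ J') :
    ZZ J' a p := by
  obtain ⟨f, hf, h⟩ := h
  exact ⟨f, hf, sup_le_sup_right hJ _ h⟩

theorem zz_of_gg_zero {J : Submodule A R} {p : Ideal A} (h : GG J p 0) (a : R) : ZZ J a p := by
  obtain ⟨f, hf, s, hs, h⟩ := h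
  have hs0 : s = ∅ := Finset.card_eq_zero.mp (Nat.le_zero.mp hs)
  subst hs0
  have h1 := h a
  rw [Finset.coe_empty, span_empty, sup_bot_eq] at h1
  exact ⟨f, hf, mem_sup_left h1⟩

theorem gg_drop {J : Submodule A R} {p : Ideal A} (hp : p.IsPrime) {y : R} {k : ℕ}
    (hz : ¬ ZZ J y p) (h : GG J p (k + 1)) : GG (J ⊔ span A {y}) p k := by
  classical
  obtain ⟨f, hf, s, hs, h⟩ := h
  obtain ⟨j, hj, w, hw, hjw⟩ := mem_sup.mp (h y)
  obtain ⟨c, -, hc⟩ := mem_span_finset.mp hw
  have hex : ∃ x ∈ s, c x ∉ p := by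
    by_contra hcon
    push Not at hcon
    refine hz ⟨f, hf, ?_⟩
    rw [← hjw]
    refine add_mem_sup hj ?_
    rw [← hc]
    exact sum_mem fun x hx => smul_mem_smul (hcon x hx) mem_top
  obtain ⟨x₀, hx₀, hcx⟩ := hex
  set T : Submodule A R := (J ⊔ span A {y}) ⊔ span A ((s.erase x₀ : Finset R) : Set R) with hT
  have hJT : J ≤ T := le_sup_of_le_left le_sup_left
  have hyT : y ∈ T := mem_sup_left (mem_sup_right (mem_span_singleton_self y))
  have hsT : ∀ x ∈ s.erase x₀, x ∈ T := fun x hx => mem_sup_right (subset_span (by exact_mod_cast hx))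
  have hx0T : c x₀ • x₀ ∈ T := by
    have h1 : c x₀ • x₀ = f • y - j - ∑ x ∈ s.erase x₀, c x • x := by
      rw [← hjw, ← hc, ← Finset.add_sum_erase s (fun x => c x • x) hx₀]
      abel
    rw [h1]
    exact sub_mem (sub_mem (T.smul_mem _ hyT) (hJT hj))
      (sum_mem fun x hx => T.smul_mem _ (hsT x hx))
  refine ⟨c x₀ * f, fun h' => (hp.mem_or_mem h').elim hcx hf, s.erase x₀, ?_, ?_⟩
  · rw [Finset.card_erase_of_mem hx₀]
    omega
  · intro x
    have hle : J ⊔ span A (s : Set R) ≤ T.comap (LinearMap.lsmul A R (c x₀)) := by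
      refine sup_le (fun z hz => T.smul_mem _ (hJT hz)) ?_
      rw [span_le]
      intro z hz
      have hz' : z ∈ s := by exact_mod_cast hz
      change c x₀ • z ∈ T
      by_cases hzx : z = x₀
      · rw [hzx]
        exact hx0T
      · exact T.smul_mem _ (hsT z (Finset.mem_erase.mpr ⟨hzx, hz'⟩))
    have := hle (h x)
    rw [mul_smul]
    exact this

theorem gg_lift {J : Submodule A R} {q : Ideal A} (hq : q.IsPrime) {a : R} {k : ℕ}
    (hz : ZZ J a q) (h : GG (J ⊔ span A {a}) q k) : GG J q k := by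
  obtain ⟨f, hf, hfa⟩ := hz
  obtain ⟨g, hg, s, hs, h⟩ := h
  set T : Submodule A R := J ⊔ span A (s : Set R) with hT
  have h' : ∀ x : R, ∃ t ∈ T, ∃ e : A, t + e • a = g • x := by
    intro x
    have h1 := h x
    rw [sup_right_comm] at h1
    obtain ⟨t, ht, u, hu, htu⟩ := mem_sup.mp h1
    obtain ⟨e, he⟩ := mem_span_singleton.mp hu
    exact ⟨t, ht, e, by rw [he, htu]⟩
  have hle : J ⊔ q • (⊤ : Submodule A R) ≤
      (T ⊔ q • span A {a}).comap (LinearMap.lsmul A R g) := by
    refine sup_le (fun z hz => mem_sup_left (T.smul_mem _ (mem_sup_left hz))) ?_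
    rw [smul_le]
    intro r hr n _
    change g • (r • n) ∈ T ⊔ q • span A {a}
    obtain ⟨t, ht, e, he⟩ := h' n
    rw [smul_comm, ← he, smul_add]
    exact add_mem_sup (T.smul_mem _ ht)
      (smul_mem_smul hr (smul_mem _ _ (mem_span_singleton_self a)))
  have h2 : g • (f • a) ∈ T ⊔ q • span A {a} := hle hfa
  obtain ⟨t, ht, u, hu, htu⟩ := mem_sup.mp h2
  obtain ⟨c, hc, hcu⟩ := mem_smul_span_singleton.mp hu
  have h3 : (g * f - c) • a ∈ T := by
    rw [sub_smul, mul_smul, ← htu, hcu, add_sub_cancel_right]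
    exact ht
  have h4 : g * f - c ∉ q := by
    intro h5
    have h6 : g * f ∈ q := by
      have := q.add_mem h5 hc
      rwa [sub_add_cancel] at this
    exact (hq.mem_or_mem h6).elim hg hf
  refine ⟨(g * f - c) * g, fun h5 => (hq.mem_or_mem h5).elim h4 hg, s, hs, fun x => ?_⟩
  obtain ⟨t', ht', e, he⟩ := h' x
  rw [mul_smul, ← he, smul_add]
  refine T.add_mem (T.smul_mem _ ht') ?_
  rw [smul_comm]
  exact T.smul_mem _ h3

/-- the invariant of the induction -/
def Inv (m i : ℕ) (a : R) (H : Ideal A → ℕ) (J : Submodule A R) : Prop :=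
  ∀ p : Ideal A, p.IsPrime → ¬ ZZ J a p → ∃ k, GG J p k ∧ k + i ≤ m * (1 + H p)

/-- the critical primes -/
def Crit (m i : ℕ) (a : R) (H : Ideal A → ℕ) (J : Submodule A R) : Set (Ideal A) :=
  {p | p.IsPrime ∧ ¬ ZZ J a p ∧ ∀ k, GG J p k → m * (1 + H p) ≤ k + i}

theorem crit_finite [IsNoetherianRing A] {m i d : ℕ} {a : R} {H : Ideal A → ℕ}
    {J : Submodule A R} (hm : 1 ≤ m)
    (hH : ∀ p q : Ideal A, p.IsPrime → q.IsPrime → q < p → H q < H p)
    (hd : ∀ p : Ideal A, p.IsPrime → H p ≤ d) (hI : Inv m i a H J) : (Crit m i a H J).Finite := by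
  set I : ℕ → Ideal A := fun k => Ideal.span
    {f | ∃ s : Finset R, s.card ≤ k ∧ ∀ x : R, f • x ∈ J ⊔ span A (s : Set R)} with hIdef
  have hnot : ∀ (q : Ideal A) (k : ℕ), I k ≤ q → ¬ GG J q k := by
    rintro q k hle ⟨f, hf, s, hs, h⟩
    exact hf (hle (Ideal.subset_span ⟨s, hs, h⟩))
  refine Set.Finite.subset (Set.Finite.biUnion (Finset.finite_toSet
    (Finset.range (m * (1 + d) + 1)))
    (fun k _ => Ideal.finite_minimalPrimes_of_isNoetherianRing A (I k))) ?_
  rintro p ⟨hp, hz, hc⟩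
  obtain ⟨k, hk, hki⟩ := hI p hp hz
  have hHp := hd p hp
  have hk0 : k ≠ 0 := by
    rintro rfl
    exact hz (zz_of_gg_zero hk a)
  obtain ⟨k', rfl⟩ := Nat.exists_eq_succ_of_ne_zero hk0
  have hck := hc _ hk
  have hmle : m * (1 + H p) ≤ m * (1 + d) := Nat.mul_le_mul_left _ (by omega)
  have hng : ¬ GG J p k' := fun h => by
    have := hc _ h
    simp only [Nat.succ_eq_add_one] at hki
    omega
  have hIp : I k' ≤ p := by
    rw [Ideal.span_le]
    rintro f ⟨s, hs, h⟩
    by_contra hf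
    exact hng ⟨f, hf, s, hs, h⟩
  simp only [Set.mem_iUnion]
  refine ⟨k', ?_, ?_⟩
  · rw [Finset.mem_coe, Finset.mem_range]
    simp only [Nat.succ_eq_add_one] at hki
    omega
  · refine ⟨⟨hp, hIp⟩, ?_⟩
    rintro q ⟨hq, hIq⟩ hqp
    by_contra hpq
    have hlt : q < p := lt_of_le_not_ge hqp hpq
    have hHlt := hH p q hp hq hlt
    have hnq := hnot q k' hIq
    by_cases hzq : ZZ J a q
    · exact hnq (gg_lift hq hzq ((gg_drop hp hz hk).antip hqp))
    · obtain ⟨k2, hk2, hk2i⟩ := hI q hq hzq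
      have h1 : k' + 1 ≤ k2 := by
        by_contra hlt2
        exact hnq (hk2.monok (by omega))
      have h2 : m * (1 + H q) < m * (1 + H p) := Nat.mul_lt_mul_of_pos_left (by omega) (by omega)
      simp only [Nat.succ_eq_add_one] at hck hki
      omega

theorem exists_choice {J : Submodule A R} {a : R} (y : R) (S : Finset (Ideal A))
    (hS : ∀ p ∈ S, p.IsPrime ∧ ¬ ZZ J a p) :
    ∃ t : A, ∀ p ∈ S, ¬ ZZ J (y + t • a) p := by
  classical
  induction S using Finset.strongInduction with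
  | H S ih =>
    rcases S.eq_empty_or_nonempty with rfl | hne
    · exact ⟨0, by simp⟩
    obtain ⟨p, hpS, hmin⟩ := S.exists_minimal hne
    obtain ⟨t, ht⟩ := ih (S.erase p) (Finset.erase_ssubset hpS)
      (fun q hq => hS q (Finset.mem_of_mem_erase hq))
    by_cases hz : ZZ J (y + t • a) p
    swap
    · refine ⟨t, fun q hq => ?_⟩
      by_cases hqp : q = p
      · rwa [hqp]
      · exact ht q (Finset.mem_erase.mpr ⟨hqp, hq⟩)
    have hnle : ∀ q ∈ S.erase p, ∃ x ∈ q, x ∉ p := by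
      intro q hq
      have hq' := Finset.mem_erase.mp hq
      refine SetLike.not_le_iff_exists.mp fun hle => hq'.1 ?_
      exact le_antisymm hle (hmin hq'.2 hle)
    choose! x hx hxp using hnle
    set u := ∏ q ∈ S.erase p, x q with hu
    have hpp := (hS p hpS).1
    have hup : u ∉ p := by
      intro h
      rw [hu, hpp.prod_mem_iff] at h
      obtain ⟨q, hq, h⟩ := h
      exact hxp q hq h
    have huq : ∀ q ∈ S.erase p, u ∈ q := fun q hq =>
      Ideal.mem_of_dvd _ (Finset.dvd_prod_of_mem x hq) (hx q hq)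
    refine ⟨t + u, fun q hq => ?_⟩
    have hsplit : y + (t + u) • a = (y + t • a) + u • a := by
      rw [add_smul, add_assoc]
    by_cases hqp : q = p
    · subst hqp
      rintro ⟨f, hf, hfa⟩
      obtain ⟨g, hg, hga⟩ := hz
      refine (hS q hq).2 ⟨g * f * u, fun h => ?_, ?_⟩
      · rcases hpp.mem_or_mem h with h | h
        · exact (hpp.mem_or_mem h).elim hg hf
        · exact hup h
      · have h1 : (g * f * u) • a = g • (f • (y + (t + u) • a)) - f • (g • (y + t • a)) := by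
          rw [hsplit]
          simp only [smul_add, smul_smul]
          rw [mul_comm f g]
          have : f * (g * t) = g * (f * t) := by ring
          rw [this, mul_assoc g f u]
          abel
        rw [h1]
        exact sub_mem (smul_mem _ _ hfa) (smul_mem _ _ hga)
    · have hqe : q ∈ S.erase p := Finset.mem_erase.mpr ⟨hqp, hq⟩
      rintro ⟨f, hf, hfa⟩
      refine ht q hqe ⟨f, hf, ?_⟩
      have h1 : f • (y + t • a) = f • (y + (t + u) • a) - f • (u • a) := by
        rw [hsplit, smul_add f (y + t • a)]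
        abel
      rw [h1]
      exact sub_mem hfa (smul_mem _ _ (mem_sup_right (smul_mem_smul (huq q hqe) mem_top)))

/-- the right ideal generated by the first `i` elements -/
def JJ (A : Type) {R : Type} [CommRing A] [Ring R] [Algebra A R] (w : ℕ → R) :
    ℕ → Submodule A R
  | 0 => ⊥
  | i + 1 => JJ A w i ⊔ LinearMap.range (LinearMap.mulLeft A (w i))

theorem JJ_congr {w w' : ℕ → R} {i : ℕ} (h : ∀ l < i, w l = w' l) : JJ A w i = JJ A w' i := by
  induction i with
  | zero => rfl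
  | succ i ih =>
    rw [JJ, JJ, ih (fun l hl => h l (by omega)), h i (by omega)]

theorem mem_JJ {w : ℕ → R} {i : ℕ} {x : R} :
    x ∈ JJ A w i ↔ ∃ v : ℕ → R, ∑ l ∈ Finset.range i, w l * v l = x := by
  classical
  induction i generalizing x with
  | zero => simp [JJ, eq_comm]
  | succ i ih =>
    rw [JJ, mem_sup]
    constructor
    · rintro ⟨y, hy, z, ⟨r, rfl⟩, rfl⟩
      obtain ⟨v, hv⟩ := ih.mp hy
      refine ⟨Function.update v i r, ?_⟩
      rw [Finset.sum_range_succ, Function.update_self, ← hv]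
      congr 1
      refine Finset.sum_congr rfl fun l hl => ?_
      rw [Function.update_of_ne (by have := Finset.mem_range.mp hl; omega)]
    · rintro ⟨v, hv⟩
      rw [Finset.sum_range_succ] at hv
      exact ⟨_, ih.mpr ⟨v, rfl⟩, w i * v i, ⟨v i, rfl⟩, hv⟩

theorem JJ_mul {w : ℕ → R} {i : ℕ} {x : R} (h : x ∈ JJ A w i) (r : R) : x * r ∈ JJ A w i := by
  obtain ⟨v, rfl⟩ := mem_JJ.mp h
  refine mem_JJ.mpr ⟨fun l => v l * r, ?_⟩
  rw [Finset.sum_mul]
  exact Finset.sum_congr rfl fun l _ => (mul_assoc _ _ _).symm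

theorem inv_step [IsNoetherianRing A] {m i d : ℕ} {a : R} {H : Ideal A → ℕ}
    {J : Submodule A R} (hm : 1 ≤ m)
    (hH : ∀ p q : Ideal A, p.IsPrime → q.IsPrime → q < p → H q < H p)
    (hd : ∀ p : Ideal A, p.IsPrime → H p ≤ d) (hI : Inv m i a H J) (y : R) :
    ∃ t : A, Inv m (i + 1) a H (J ⊔ LinearMap.range (LinearMap.mulLeft A (y + t • a))) := by
  classical
  have hfin := crit_finite hm hH hd hI
  obtain ⟨t, ht⟩ := exists_choice (J := J) (a := a) y hfin.toFinset
    (fun p hp => by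
      have := hfin.mem_toFinset.mp hp
      exact ⟨this.1, this.2.1⟩)
  refine ⟨t, fun p hp hz => ?_⟩
  have hz' : ¬ ZZ J a p := fun h => hz (h.monoJ le_sup_left)
  have hle : J ⊔ span A {y + t • a} ≤
      J ⊔ LinearMap.range (LinearMap.mulLeft A (y + t • a)) := by
    refine sup_le_sup_left ?_ _
    rw [span_singleton_le_iff_mem]
    exact ⟨1, by simp⟩
  by_cases hc : p ∈ Crit m i a H J
  · have h1 := ht p (hfin.mem_toFinset.mpr hc)
    obtain ⟨k, hk, hki⟩ := hI p hp hz'
    have hk0 : k ≠ 0 := by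
      rintro rfl
      exact h1 (zz_of_gg_zero hk _)
    obtain ⟨k', rfl⟩ := Nat.exists_eq_succ_of_ne_zero hk0
    refine ⟨k', (gg_drop hp h1 hk).monoJ hle, ?_⟩
    simp only [Nat.succ_eq_add_one] at hki
    omega
  · have h2 : ∃ k, GG J p k ∧ k + i < m * (1 + H p) := by
      by_contra hcon
      push Not at hcon
      exact hc ⟨hp, hz', hcon⟩
    obtain ⟨k, hk, hki⟩ := h2
    exact ⟨k, hk.monoJ le_sup_left, by omega⟩

theorem exists_seq [IsNoetherianRing A] {m d : ℕ} {a : R} {H : Ideal A → ℕ} (hm : 1 ≤ m)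
    (hH : ∀ p q : Ideal A, p.IsPrime → q.IsPrime → q < p → H q < H p)
    (hd : ∀ p : Ideal A, p.IsPrime → H p ≤ d) (h0 : Inv m 0 a H (⊥ : Submodule A R))
    (y : ℕ → R) (i : ℕ) : ∃ t : ℕ → A, Inv m i a H (JJ A (fun l => y l + t l • a) i) := by
  classical
  induction i with
  | zero => exact ⟨0, h0⟩
  | succ i ih =>
    obtain ⟨t, ht⟩ := ih
    obtain ⟨s, hs⟩ := inv_step hm hH hd ht (y i)
    refine ⟨Function.update t i s, ?_⟩
    rw [JJ, JJ_congr (w' := fun l => y l + t l • a) (fun l hl => by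
      rw [Function.update_of_ne (by omega)])]
    simpa using hs

/-- local Nakayama -/
theorem gg_zero_of_fibre {J : Submodule A R} {p : Ideal A} (hp : p.IsPrime) {f : A} (hf : f ∉ p)
    (h : ∀ x : R, f • x ∈ J ⊔ p • (⊤ : Submodule A R)) (S : Finset R)
    (hS : GG (J ⊔ span A (S : Set R)) p 0) : GG J p 0 := by
  classical
  induction S using Finset.induction_on with
  | empty =>
    rw [Finset.coe_empty, span_empty, sup_bot_eq] at hS
    exact hS
  | insert x S hx ih =>
    refine ih ?_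
    refine gg_lift (a := x) hp ?_ ?_
    · have hle : J ⊔ p • (⊤ : Submodule A R) ≤
          (J ⊔ span A (S : Set R)) ⊔ p • (⊤ : Submodule A R) := sup_le_sup_right le_sup_left _
      exact ⟨f, hf, hle (h x)⟩
    · rw [Finset.coe_insert, span_insert, sup_comm (span A {x}), ← sup_assoc] at hS
      exact hS

theorem bass_core [IsNoetherianRing A] [Module.Finite A R] {d : ℕ}
    (hht : ∀ p : Ideal A, p.IsPrime → p.height ≤ d) :
    ∃ n : ℕ, 1 ≤ n ∧ ∀ (y : Fin n → R) (a : R),
      (∃ (b : Fin n → R) (c : R), ∑ i, y i * b i + a * c = 1) →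
        ∃ t v : Fin n → R, ∑ i, (y i + a * t i) * v i = 1 := by
  classical
  obtain ⟨S, hS⟩ := (Module.Finite.fg_top : (⊤ : Submodule A R).FG)
  set m := S.card + 1 with hmdef
  have hm : 1 ≤ m := by omega
  set H : Ideal A → ℕ := fun p => p.height.toNat with hHdef
  have hfin : ∀ p : Ideal A, p.IsPrime → ((H p : ℕ) : ℕ∞) = p.height := fun p hp =>
    ENat.natCast_toNat (ne_top_of_le_ne_top (ENat.natCast_ne_top d) (hht p hp))
  have hH : ∀ p q : Ideal A, p.IsPrime → q.IsPrime → q < p → H q < H p := by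
    intro p q hp hq hlt
    have h1 : q.height + 1 ≤ p.height := Ideal.height_add_one_le_of_lt_of_isPrime hlt
    rw [← hfin p hp, ← hfin q hq] at h1
    exact_mod_cast h1
  have hd : ∀ p : Ideal A, p.IsPrime → H p ≤ d := by
    intro p hp
    have h1 := hht p hp
    rw [← hfin p hp] at h1
    exact_mod_cast h1
  obtain ⟨n, hn⟩ : ∃ n, n = m * (1 + d) := ⟨_, rfl⟩
  refine ⟨n, hn ▸ Nat.mul_pos (by omega) (by omega), ?_⟩
  rintro y a ⟨b, c, hbc⟩
  have h0 : Inv m 0 a H (⊥ : Submodule A R) := by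
    intro p hp _
    refine ⟨m, ⟨1, ?_, S, by omega, fun x => ?_⟩, ?_⟩
    · exact fun h => hp.ne_top ((Ideal.eq_top_iff_one p).mpr h)
    · rw [hS]
      exact mem_sup_right mem_top
    · rw [add_zero]
      exact Nat.le_mul_of_pos_right _ (by omega)
  set y' : ℕ → R := fun l => if h : l < n then y ⟨l, h⟩ else 0 with hy'
  set b' : ℕ → R := fun l => if h : l < n then b ⟨l, h⟩ else 0 with hb'
  obtain ⟨t, ht⟩ := exists_seq hm hH hd h0 y' n
  set w : ℕ → R := fun l => y' l + t l • a with hw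
  have hone : ∀ x : R, ∃ j ∈ JJ A w n, ∃ r : R, x = j + a * r := by
    intro x
    refine ⟨(∑ l ∈ Finset.range n, w l * b' l) * x,
      JJ_mul (mem_JJ.mpr ⟨b', rfl⟩) x, (c - ∑ l ∈ Finset.range n, t l • b' l) * x, ?_⟩
    have h1 : ∑ l ∈ Finset.range n, y' l * b' l + a * c = 1 := by
      rw [Finset.sum_range, ← hbc]
      congr 1
      refine Finset.sum_congr rfl fun l _ => ?_
      simp [hy', hb', l.2]
    have h2 : ∑ l ∈ Finset.range n, w l * b' l + a * (c - ∑ l ∈ Finset.range n, t l • b' l)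
        = 1 := by
      rw [← h1, mul_sub, Finset.mul_sum]
      simp only [hw, add_mul, Finset.sum_add_distrib, smul_mul_assoc, mul_smul_comm]
      abel
    rw [← mul_assoc, ← add_mul, h2, one_mul]
  have hZ : ∀ p : Ideal A, p.IsPrime → ZZ (JJ A w n) a p := by
    intro p hp
    by_contra hz
    obtain ⟨k, hk, hki⟩ := ht p hp hz
    have h1 : m * (1 + H p) ≤ m * (1 + d) := Nat.mul_le_mul_left _ (by have := hd p hp; omega)
    have h2 : k = 0 := by omega
    subst h2
    exact hz (zz_of_gg_zero hk a)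
  have hG : ∀ p : Ideal A, p.IsPrime → GG (JJ A w n) p 0 := by
    intro p hp
    obtain ⟨f, hf, hfa⟩ := hZ p hp
    refine gg_zero_of_fibre hp hf ?_ S ?_
    · intro x
      obtain ⟨j, hj, r, rfl⟩ := hone x
      rw [smul_add]
      refine add_mem (mem_sup_left (smul_mem _ _ hj)) ?_
      obtain ⟨j', hj', z, hz, hjz⟩ := mem_sup.mp hfa
      have h1 : f • (a * r) = j' * r + z * r := by
        rw [← smul_mul_assoc, ← hjz, add_mul]
      rw [h1]
      refine add_mem_sup (JJ_mul hj' r) ?_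
      have h2 : p • (⊤ : Submodule A R) ≤
          (p • (⊤ : Submodule A R)).comap (LinearMap.mulRight A r) := by
        rw [smul_le]
        intro e he n' _
        change (e • n') * r ∈ p • (⊤ : Submodule A R)
        rw [smul_mul_assoc]
        exact smul_mem_smul he mem_top
      exact h2 hz
    · refine ⟨1, fun h => hp.ne_top ((Ideal.eq_top_iff_one p).mpr h), ∅, le_refl _, fun x => ?_⟩
      rw [hS, sup_top_eq, top_sup_eq]
      exact mem_top
  have h1J : (1 : R) ∈ JJ A w n := by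
    set I : Ideal A := (JJ A w n).comap (LinearMap.toSpanSingleton A R 1) with hI
    have hItop : I = ⊤ := by
      by_contra hne
      obtain ⟨M, hM, hIM⟩ := Ideal.exists_le_maximal I hne
      obtain ⟨f, hf, s, hs, h⟩ := hG M hM.isPrime
      have hs0 : s = ∅ := Finset.card_eq_zero.mp (Nat.le_zero.mp hs)
      subst hs0
      have h1 := h 1
      rw [Finset.coe_empty, span_empty, sup_bot_eq] at h1
      exact hf (hIM h1)
    have h2 : (1 : A) ∈ I := by rw [hItop]; exact mem_top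
    have h3 : (1 : A) • (1 : R) ∈ JJ A w n := h2
    rwa [one_smul] at h3
  obtain ⟨v, hv⟩ := mem_JJ.mp h1J
  refine ⟨fun i => algebraMap A R (t i), fun i => v i, ?_⟩
  rw [← hv, Finset.sum_range]
  refine Finset.sum_congr rfl fun l _ => ?_
  simp only [hw, hy', l.2, dite_true, Fin.eta]
  rw [Algebra.smul_def, Algebra.commutes]

end Vale.Agent.P246.H110
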