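import Vale.Agent.P246.R2.H429.Defs
import Vale.Agent.P246.R2.H110.Core

/-! # ROW B: Bass stable range -/

namespace Vale.Agent.P246.H110

open Vale.Agent.P246.H429

theorem bass : SpecBass := by
  intro A R _ _ _ _ _ d hd
  obtain ⟨n, hn, h⟩ := bass_core (A := A) (R := R) hd
  exact ⟨n, hn, fun y a hy => h y a hy⟩

end Vale.Agent.P246.H110
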