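import Vale.Agent.P246.R2.H429.Defs4

/-! # P246: ROW TW1 (the collapse map of the square onto the sphere) -/

namespace Vale.Agent.P246.H110

open Vale.Agent.P246 Vale.Agent.P246.T Vale.Agent.P246.H429 Topology Set Module

theorem exists_collapse (s : S2) : ∃ κ : C(Dk 2, S2),
    (∀ z : Dk 2, ‖(z : Fin 2 → ℝ)‖ = 1 → κ z = s) ∧
    (∀ z : Dk 2, ‖(z : Fin 2 → ℝ)‖ < 1 → κ z ≠ s) ∧
    (∀ z z' : Dk 2, ‖(z : Fin 2 → ℝ)‖ < 1 → ‖(z' : Fin 2 → ℝ)‖ < 1 → κ z = κ z' → z = z') ∧
    ∀ q : S2, ∃ z, κ z = q := by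
  classical
  have : Fact (finrank ℝ (EuclideanSpace ℝ (Fin 3)) = 2 + 1) := ⟨by simp⟩
  set σ := stereographic' 2 s with hσ
  have hsrc : σ.source = {s}ᶜ := stereographic'_source s
  have htgt : σ.target = univ := stereographic'_target s
  set U : (Submodule.span ℝ {(s : EuclideanSpace ℝ (Fin 3))})ᗮ ≃ₗᵢ[ℝ] EuclideanSpace ℝ (Fin 2) :=
    (OrthonormalBasis.fromOrthogonalSpanSingleton 2 (ne_zero_of_mem_unit_sphere s)).repr with hU
  set w : Dk 2 → EuclideanSpace ℝ (Fin 2) := fun z =>
    WithLp.toLp 2 ((1 - ‖(z : Fin 2 → ℝ)‖)⁻¹ • (z : Fin 2 → ℝ)) with hw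
  set κ0 : Dk 2 → S2 := fun z => if ‖(z : Fin 2 → ℝ)‖ < 1 then σ.symm (w z) else s with hκ0
  set φ : Dk 2 → EuclideanSpace ℝ (Fin 3) := fun z =>
    (U.symm (WithLp.toLp 2 (z : Fin 2 → ℝ)) : EuclideanSpace ℝ (Fin 3)) with hφ
  have hle : ∀ z : Dk 2, ‖(z : Fin 2 → ℝ)‖ ≤ 1 := fun z => mem_closedBall_zero_iff.1 z.2
  have hφc : Continuous φ := by
    have h1 : Continuous fun z : Dk 2 => WithLp.toLp 2 (z : Fin 2 → ℝ) :=
      (PiLp.continuous_toLp 2 _).comp continuous_subtype_val
    exact continuous_subtype_val.comp (U.symm.continuous.comp h1)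
  have hden : ∀ z : Dk 2, 0 < ‖φ z‖ ^ 2 + 4 * (1 - ‖(z : Fin 2 → ℝ)‖) ^ 2 := by
    intro z
    rcases lt_or_eq_of_le (hle z) with h | h
    · have : 0 < 1 - ‖(z : Fin 2 → ℝ)‖ := by linarith
      positivity
    · have h1 : φ z ≠ 0 := by
        intro h0
        have h2 : U.symm (WithLp.toLp 2 (z : Fin 2 → ℝ)) = 0 := Subtype.ext h0
        rw [LinearIsometryEquiv.map_eq_zero_iff] at h2
        have h3 : (z : Fin 2 → ℝ) = 0 := by
          have := congrArg WithLp.ofLp h2
          simpa using this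
        rw [h3, norm_zero] at h
        norm_num at h
      have := norm_pos_iff.2 h1
      positivity
  have hform : ∀ z : Dk 2, (κ0 z : EuclideanSpace ℝ (Fin 3)) =
      (‖φ z‖ ^ 2 + 4 * (1 - ‖(z : Fin 2 → ℝ)‖) ^ 2)⁻¹ •
        ((4 * (1 - ‖(z : Fin 2 → ℝ)‖)) • φ z +
          (‖φ z‖ ^ 2 - 4 * (1 - ‖(z : Fin 2 → ℝ)‖) ^ 2) • (s : EuclideanSpace ℝ (Fin 3))) := by
    intro z
    have hd := hden z
    rcases lt_or_eq_of_le (hle z) with h | h
    · have ha : 0 < 1 - ‖(z : Fin 2 → ℝ)‖ := by linarith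
      have hk : κ0 z = σ.symm (w z) := by
        rw [hκ0]
        exact if_pos h
      have h1 : (U.symm (w z) : EuclideanSpace ℝ (Fin 3)) = (1 - ‖(z : Fin 2 → ℝ)‖)⁻¹ • φ z := by
        have : w z = (1 - ‖(z : Fin 2 → ℝ)‖)⁻¹ • WithLp.toLp 2 (z : Fin 2 → ℝ) := rfl
        rw [this, map_smul]
        rfl
      rw [hk, hσ, stereographic'_symm_apply]
      simp only [← hU]
      rw [h1, norm_smul, Real.norm_of_nonneg (inv_pos.2 ha).le]
      set a := 1 - ‖(z : Fin 2 → ℝ)‖ with hadef
      set N := ‖φ z‖ with hN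
      rw [smul_add]
      simp only [smul_smul]
      have e1 : (a⁻¹ * N) ^ 2 + 4 = (N ^ 2 + 4 * a ^ 2) / a ^ 2 := by
        field_simp
      congr 1
      · congr 1
        rw [e1]
        field_simp
      · congr 1
        rw [e1]
        field_simp
    · have hk : κ0 z = s := by
        rw [hκ0]
        exact if_neg (by rw [h]; exact lt_irrefl _)
      rw [h] at hd
      rw [hk, h]
      have hN : ‖φ z‖ ^ 2 ≠ 0 := by
        intro h0
        rw [h0] at hd
        norm_num at hd
      simp only [sub_self, mul_zero, zero_smul, zero_add, ne_eq, OfNat.ofNat_ne_zero,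
        not_false_eq_true, zero_pow, add_zero, sub_zero, smul_smul]
      rw [inv_mul_cancel₀ hN, one_smul]
  have hcont : Continuous κ0 := by
    rw [continuous_induced_rng]
    have h1 : (Subtype.val ∘ κ0) = fun z : Dk 2 =>
        (‖φ z‖ ^ 2 + 4 * (1 - ‖(z : Fin 2 → ℝ)‖) ^ 2)⁻¹ •
        ((4 * (1 - ‖(z : Fin 2 → ℝ)‖)) • φ z +
          (‖φ z‖ ^ 2 - 4 * (1 - ‖(z : Fin 2 → ℝ)‖) ^ 2) • (s : EuclideanSpace ℝ (Fin 3))) :=
      funext hform
    rw [h1]
    have hr : Continuous fun z : Dk 2 => ‖(z : Fin 2 → ℝ)‖ :=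
      continuous_norm.comp continuous_subtype_val
    have hN : Continuous fun z : Dk 2 => ‖φ z‖ := continuous_norm.comp hφc
    refine Continuous.smul (Continuous.inv₀ (by fun_prop) fun z => (hden z).ne') ?_
    have c1 : Continuous fun z : Dk 2 => 4 * (1 - ‖(z : Fin 2 → ℝ)‖) :=
      continuous_const.mul (continuous_const.sub hr)
    have c2 : Continuous fun z : Dk 2 => ‖φ z‖ ^ 2 - 4 * (1 - ‖(z : Fin 2 → ℝ)‖) ^ 2 :=
      (hN.pow 2).sub (continuous_const.mul ((continuous_const.sub hr).pow 2))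
    exact (c1.smul hφc).add (c2.smul continuous_const)
  refine ⟨⟨κ0, hcont⟩, fun z hz => ?_, fun z hz => ?_, fun z z' hz hz' h => ?_, fun q => ?_⟩
  · change κ0 z = s
    rw [hκ0]
    exact if_neg (by rw [hz]; exact lt_irrefl _)
  · change κ0 z ≠ s
    have hk : κ0 z = σ.symm (w z) := by
      rw [hκ0]
      exact if_pos hz
    rw [hk]
    have h1 : σ.symm (w z) ∈ σ.source := σ.map_target (by rw [htgt]; exact mem_univ _)
    rw [hsrc] at h1
    exact h1
  · change κ0 z = κ0 z' at h
    have hk : κ0 z = σ.symm (w z) := by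
      rw [hκ0]
      exact if_pos hz
    have hk' : κ0 z' = σ.symm (w z') := by
      rw [hκ0]
      exact if_pos hz'
    rw [hk, hk'] at h
    have h1 : w z = w z' := by
      rw [← σ.right_inv (show w z ∈ σ.target by rw [htgt]; exact mem_univ _), h,
        σ.right_inv (show w z' ∈ σ.target by rw [htgt]; exact mem_univ _)]
    have h2 : (1 - ‖(z : Fin 2 → ℝ)‖)⁻¹ • (z : Fin 2 → ℝ) =
        (1 - ‖(z' : Fin 2 → ℝ)‖)⁻¹ • (z' : Fin 2 → ℝ) := congrArg WithLp.ofLp h1
    have ha : 0 < 1 - ‖(z : Fin 2 → ℝ)‖ := by linarith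
    have ha' : 0 < 1 - ‖(z' : Fin 2 → ℝ)‖ := by linarith
    have h3 := congrArg norm h2
    rw [norm_smul, norm_smul, Real.norm_of_nonneg (inv_pos.2 ha).le,
      Real.norm_of_nonneg (inv_pos.2 ha').le] at h3
    have h4 : ‖(z : Fin 2 → ℝ)‖ = ‖(z' : Fin 2 → ℝ)‖ := by
      field_simp at h3
      linarith
    rw [h4] at h2
    exact Subtype.ext (smul_right_injective _ (inv_pos.2 ha').ne' h2)
  · by_cases hq : q = s
    · refine ⟨⟨fun _ => 1, ?_⟩, ?_⟩
      · rw [mem_closedBall_zero_iff, pi_norm_const, norm_one]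
      · change κ0 _ = q
        rw [hκ0, hq]
        refine if_neg ?_
        change ¬ ‖(fun _ => 1 : Fin 2 → ℝ)‖ < 1
        rw [pi_norm_const, norm_one]
        exact lt_irrefl _
    · have hqs : q ∈ σ.source := by
        rw [hsrc]
        exact hq
      set u : Fin 2 → ℝ := WithLp.ofLp (σ q) with hu
      have hpos : 0 < 1 + ‖u‖ := by positivity
      have hnz : ‖(1 + ‖u‖)⁻¹ • u‖ = ‖u‖ / (1 + ‖u‖) := by
        rw [norm_smul, Real.norm_of_nonneg (inv_pos.2 hpos).le, inv_mul_eq_div]
      have hlt : ‖(1 + ‖u‖)⁻¹ • u‖ < 1 := by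
        rw [hnz, div_lt_one hpos]
        linarith
      refine ⟨⟨(1 + ‖u‖)⁻¹ • u, mem_closedBall_zero_iff.2 hlt.le⟩, ?_⟩
      change κ0 _ = q
      have hk : κ0 ⟨(1 + ‖u‖)⁻¹ • u, mem_closedBall_zero_iff.2 hlt.le⟩ =
          σ.symm (w ⟨(1 + ‖u‖)⁻¹ • u, mem_closedBall_zero_iff.2 hlt.le⟩) := by
        rw [hκ0]
        exact if_pos hlt
      rw [hk]
      have h1 : w ⟨(1 + ‖u‖)⁻¹ • u, mem_closedBall_zero_iff.2 hlt.le⟩ = σ q := by
        change WithLp.toLp 2 ((1 - ‖(1 + ‖u‖)⁻¹ • u‖)⁻¹ • ((1 + ‖u‖)⁻¹ • u)) = σ q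
        rw [hnz, smul_smul]
        have h2 : (1 - ‖u‖ / (1 + ‖u‖))⁻¹ * (1 + ‖u‖)⁻¹ = 1 := by
          have : 1 - ‖u‖ / (1 + ‖u‖) = (1 + ‖u‖)⁻¹ := by
            field_simp
            ring
          rw [this, inv_inv, mul_inv_cancel₀ hpos.ne']
        rw [h2, one_smul]
      rw [h1]
      exact σ.left_inv hqs

theorem sph : SpecSph := by
  classical
  intro X _ _ x s t
  obtain ⟨κ, hk1, hk2, hk3, hk4⟩ := exists_collapse s
  set A : ℕ → Set (WedgeS2 X x s t) := fun j => {q | ∀ i : Fin t, j ≤ (i : ℕ) → q.1.2 i = s}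
    with hA
  have hA0 : A 0 = inX X x s t := by
    ext q
    exact ⟨fun h i => h i (Nat.zero_le _), fun h i _ => h i⟩
  have hAt : A t = univ := by
    ext q
    exact ⟨fun _ => mem_univ _, fun _ i hi => absurd i.2 (by omega)⟩
  have key : ∀ j, j ≤ t → Sph (inX X x s t) (A j) j := by
    intro j
    induction j with
    | zero =>
      intro _
      rw [hA0]
      exact Sph.base
    | succ j ih =>
      intro hj
      set J : Fin t := ⟨j, hj⟩ with hJ
      set Φ : C(Dk 2, WedgeS2 X x s t) :=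
        ⟨fun z => ⟨(x, Function.update (fun _ => s) J (κ z)),
          Or.inr ⟨rfl, J, fun k hk => Function.update_of_ne hk (κ z) (fun _ => s)⟩⟩,
          Continuous.subtype_mk (continuous_const.prodMk
            (continuous_const.update J κ.continuous)) _⟩ with hΦ
      have hΦJ : ∀ z, (Φ z).1.2 J = κ z := fun z => Function.update_self J (κ z) (fun _ => s)
      have hΦk : ∀ z k, k ≠ J → (Φ z).1.2 k = s := fun z k hk =>
        Function.update_of_ne hk (κ z) (fun _ => s)
      refine Sph.cell Φ ⟨(x, fun _ => s), Or.inl fun _ => rfl⟩ (ih (by omega)) (fun _ => rfl)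
        (fun z hz => ?_) ?_
      · refine Subtype.ext (Prod.ext rfl (funext fun k => ?_))
        by_cases hk : k = J
        · rw [hk, hΦJ]
          exact hk1 z hz
        · exact hΦk z k hk
      · constructor
        · intro z hz i hi
          by_cases hk : i = J
          · rw [hk, hΦJ]
            exact hk1 z hz
          · exact hΦk z i hk
        · intro z hz h
          exact hk2 z hz ((hΦJ z).symm.trans (h J le_rfl))
        · intro z z' hz hz' h
          refine hk3 z z' hz hz' ?_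
          rw [← hΦJ, ← hΦJ, h]
        · ext q
          constructor
          · intro hq
            by_cases hqJ : q.1.2 J = s
            · left
              intro i hi
              rcases Nat.lt_or_ge j i with h | h
              · exact hq i h
              · have : i = J := Fin.ext (le_antisymm h hi)
                rw [this]
                exact hqJ
            · right
              rcases q.2 with h | ⟨h1, i, h2⟩
              · exact absurd (h J) hqJ
              · have hiJ : J = i := by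
                  by_contra hne
                  exact hqJ (h2 J hne)
                obtain ⟨z, hz⟩ := hk4 (q.1.2 J)
                refine ⟨z, Subtype.ext (Prod.ext h1.symm (funext fun k => ?_))⟩
                by_cases hk : k = J
                · rw [hk, hΦJ, hz]
                · rw [hΦk z k hk]
                  exact (h2 k (by rw [← hiJ]; exact hk)).symm
          · rintro (hq | ⟨z, rfl⟩)
            · intro i hi
              exact hq i (by omega)
            · intro i hi
              refine hΦk z i ?_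
              rintro rfl
              simp only [hJ] at hi
              omega
  have := key t le_rfl
  rwa [hAt] at this

end Vale.Agent.P246.H110
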